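import Vale.Agent.P207.N4.Dim
import Vale.Agent.P207.N7.H58.Pic
import Vale.Agent.P207.N7.H547.AffLemA
import Vale.Agent.P207.N4.H709.DarB

/-!
# P207, line N7, row S-INV: compactness of the close pairs

`Nc P ε x ξ`: the closed form of `P.Nr ε x ξ`. A property of `(x, ξ, q)`, open and invariant under
the group, which holds for `ξ = em x` holds for all close pairs; families with jointly continuous
derivatives have uniform bounds on the close pairs.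
-/

open Set Filter Topology Metric MeasureTheory
open scoped ContDiff

noncomputable section

namespace Vale.Agent.P207.N4.Y.H340

open Vale.Agent.P207.N3 Vale.Agent.P207.N4.H709

variable [Dim]

variable {Γ X B : Type} [Group Γ] [MetricSpace X] [ProperSpace X] [MulAction Γ X]
  [IsIsometricSMul Γ X] [TopologicalSpace B] [CompactSpace B] [T2Space B] [MulAction Γ B]
  [ContinuousConstSMul Γ B] {L : Leaf Γ X B} [MeasurableSpace B] [BorelSpace B] {V : Type}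
  [NormedAddCommGroup V] [NormedSpace ℝ V] [FiniteDimensional ℝ V] (P : Pic L V)

theorem zero_mem_dT (x : X) : (x, (0 : E2)) ∈ P.Af.dT := P.Af.zero_dT x

theorem be_comp_diff (x : X) (ξ : B) {q : E2} (hq : (x, q) ∈ P.Af.dT) :
    DifferentiableAt ℝ (P.bq x ξ) q :=
  (be_diff P.Bu x ξ (P.Af.dsc_mem hq)).comp q (P.Af.dsc_diff hq)

/-- the gradient of a function on the disc, in the affine coordinate, at the centre -/
theorem gr_zero (x : X) (ξ : B) :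
    P.gr x ξ 0 = P.Af.c⁻¹ • gradient (P.Bu.be x ξ) 0 := by
  have h0 := zero_mem_dT P x
  have hd : DifferentiableAt ℝ (H709.dl P.Bu x ξ) (P.Af.dsc x 0) := by
    rw [P.Af.dsc_zero]
    exact (be_diff P.Bu x ξ zero_mem3).sub (be_diff P.Bu x _ zero_mem3)
  have h1 : HasFDerivAt (P.dl x ξ) (fderiv ℝ (H709.dl P.Bu x ξ) (P.Af.dsc x 0) ∘L
      fderiv ℝ (P.Af.dsc x) 0) 0 := hd.hasFDerivAt.comp 0 (P.Af.dsc_diff h0).hasFDerivAt
  have h2 : fderiv ℝ (P.dl x ξ) 0 = P.Af.c⁻¹ • fderiv ℝ (H709.dl P.Bu x ξ) 0 := by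
    rw [h1.fderiv, P.Af.der_dsc_zero, P.Af.dsc_zero]
    ext v
    simp
  have h3 : gradient (H709.dl P.Bu x ξ) 0 = gradient (P.Bu.be x ξ) 0 := gradient_dl_zero P.Bu x ξ
  rw [← h3]
  show gradient (P.dl x ξ) 0 = _
  simp only [gradient_eq_rz]
  rw [h2, map_smul]

theorem gr_zero_cont : Continuous fun p : X × B => P.gr p.1 p.2 0 := by
  have h : (fun p : X × B => P.gr p.1 p.2 0) =
      fun p : X × B => P.Af.c⁻¹ • gradient (P.Bu.be p.1 p.2) 0 := funext fun p => gr_zero P p.1 p.2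
  rw [h]
  exact (grad0_cont P.Bu).const_smul (P.Af.c⁻¹ : ℝ)

theorem nu_zero_cont : Continuous fun p : X × B => P.Bu.nu p.1 p.2 0 := nu0_cont P.Bu

theorem gr_smul (g : Γ) (x : X) (ξ : B) : P.gr (g • x) (g • ξ) 0 = P.gr x ξ 0 := by
  rw [gr_zero, gr_zero]
  congr 1
  refine gradient_congr ?_
  filter_upwards [isOpen_ball.mem_nhds zero_mem3] with t ht using P.Bu.be_smul g x ξ t ht

theorem nu_smul_zero (g : Γ) (x : X) (ξ : B) : P.Bu.nu (g • x) (g • ξ) 0 = P.Bu.nu x ξ 0 :=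
  P.Bu.nu_smul g x ξ 0 zero_mem3

/-- the closed form of `P.Nr` -/
def Nc (ε : ℝ) (x : X) (ξ : B) : Prop := 0 ≤ P.Bu.nu x ξ 0 ∧ ‖P.gr x ξ 0‖ ≤ ε

variable {P}

theorem Nc.mono {ε ε' : ℝ} {x : X} {ξ : B} (h : Nc P ε x ξ) (hε : ε ≤ ε') : Nc P ε' x ξ :=
  ⟨h.1, h.2.trans hε⟩

theorem Nc.of_nr {ε : ℝ} {x : X} {ξ : B} (h : P.Nr ε x ξ) : Nc P ε x ξ := ⟨h.1.le, h.2⟩

theorem Nc.smul {ε : ℝ} {x : X} {ξ : B} (h : Nc P ε x ξ) (g : Γ) : Nc P ε (g • x) (g • ξ) := by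
  refine ⟨?_, ?_⟩
  · rw [nu_smul_zero]
    exact h.1
  · rw [gr_smul]
    exact h.2

theorem nc_zero {x : X} {ξ : B} (h : 0 ≤ P.Bu.nu x ξ 0) (h' : P.gr x ξ 0 = 0) : ξ = L.em x := by
  refine P.Bu.cov_inj x ξ (L.em x) 0 zero_mem3 h (P.Bu.nu_em x).le ?_
  rw [P.Bu.be_crit]
  rw [gr_zero] at h'
  exact (smul_eq_zero.1 h').resolve_left (inv_ne_zero P.Af.c_pos.ne')

theorem nc_em {ε : ℝ} (hε : 0 ≤ ε) (x : X) : Nc P ε x (L.em x) := by
  refine ⟨(P.Bu.nu_em x).le, ?_⟩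
  rw [gr_zero, P.Bu.be_crit, smul_zero, norm_zero]
  exact hε

/-- **an open invariant property which holds for `ξ = em x` holds for the close pairs** -/
theorem nc_open {Q : X → B → E2 → Prop} {r : ℝ}
    (hinv : ∀ (g : Γ) x ξ, ∀ q ∈ closedBall (0 : E2) r, Q (g • x) (g • ξ) q → Q x ξ q)
    (h : ∀ x, ∀ q ∈ closedBall (0 : E2) r, ∀ᶠ p : (X × B) × E2 in 𝓝 ((x, L.em x), q),
      Q p.1.1 p.1.2 p.2) :
    ∃ ε > 0, ∀ x ξ, Nc P ε x ξ → ∀ q ∈ closedBall (0 : E2) r, Q x ξ q := by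
  obtain ⟨K, hK, hK'⟩ := L.cocompact
  set U : Set ((X × B) × E2) := interior {p | Q p.1.1 p.1.2 p.2} with hU
  set C : Set ((X × B) × E2) := ((K ×ˢ univ) ×ˢ closedBall (0 : E2) r) ∩ Uᶜ ∩
    {p | 0 ≤ P.Bu.nu p.1.1 p.1.2 0} with hC
  have hCc : IsCompact C := by
    have h1 : IsCompact ((K ×ˢ (univ : Set B)) ×ˢ closedBall (0 : E2) r) :=
      (hK.prod isCompact_univ).prod (isCompact_closedBall _ _)
    refine (h1.inter_right isOpen_interior.isClosed_compl).inter_right ?_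
    exact isClosed_le continuous_const ((nu_zero_cont P).comp continuous_fst)
  have hf : Continuous fun p : (X × B) × E2 => ‖P.gr p.1.1 p.1.2 0‖ :=
    ((gr_zero_cont P).comp continuous_fst).norm
  have hpos : ∀ p ∈ C, 0 < ‖P.gr p.1.1 p.1.2 0‖ := by
    rintro ⟨⟨x, ξ⟩, q⟩ ⟨⟨⟨-, hq⟩, hU'⟩, hnu⟩
    rw [norm_pos_iff]
    intro h0
    have h1 := nc_zero hnu h0
    refine hU' ?_
    show ((x, ξ), q) ∈ U
    rw [show ξ = L.em x from h1]
    exact mem_interior_iff_mem_nhds.2 (h x q hq)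
  obtain ⟨ε, hε, hε'⟩ : ∃ ε > 0, ∀ p ∈ C, ε < ‖P.gr p.1.1 p.1.2 0‖ := by
    rcases C.eq_empty_or_nonempty with hne | hne
    · exact ⟨1, one_pos, fun p hp => by rw [hne] at hp; exact hp.elim⟩
    · obtain ⟨p, hp, hmin⟩ := hCc.exists_isMinOn hne hf.continuousOn
      refine ⟨‖P.gr p.1.1 p.1.2 0‖ / 2, half_pos (hpos p hp), fun p' hp' => ?_⟩
      exact (half_lt_self (hpos p hp)).trans_le (hmin hp')
  refine ⟨ε, hε, fun x ξ hn q hq => ?_⟩
  obtain ⟨g, hg⟩ := hK' x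
  refine hinv g x ξ q hq ?_
  have hn' := hn.smul g
  by_contra hcon
  have hmem : ((g • x, g • ξ), q) ∈ C := by
    refine ⟨⟨⟨⟨hg, mem_univ _⟩, hq⟩, fun hU' => hcon ?_⟩, hn'.1⟩
    have h3 : ((g • x, g • ξ), q) ∈ {p : (X × B) × E2 | Q p.1.1 p.1.2 p.2} :=
      interior_subset hU'
    exact h3
  exact absurd (hε' _ hmem) (not_lt.2 hn'.2)

/-- uniform bounds of a continuous family on the close pairs -/
theorem nc_bound {G : Type} [NormedAddCommGroup G] {f : (X × B) × E2 → G}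
    {S : Set ((X × B) × E2)} (hf : ContinuousOn f S) {r ε : ℝ}
    (hS : ∀ x ξ, Nc P ε x ξ → ∀ q ∈ closedBall (0 : E2) r, ((x, ξ), q) ∈ S)
    (hinv : ∀ (g : Γ) x ξ q, ((x, ξ), q) ∈ S → f ((g • x, g • ξ), q) = f ((x, ξ), q)) :
    ∃ M, ∀ x ξ, Nc P ε x ξ → ∀ q ∈ closedBall (0 : E2) r, ‖f ((x, ξ), q)‖ ≤ M := by
  obtain ⟨K, hK, hK'⟩ := L.cocompact
  set C : Set ((X × B) × E2) := ((K ×ˢ univ) ×ˢ closedBall (0 : E2) r) ∩
    {p | 0 ≤ P.Bu.nu p.1.1 p.1.2 0 ∧ ‖P.gr p.1.1 p.1.2 0‖ ≤ ε} with hC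
  have hCc : IsCompact C := by
    have h1 : IsCompact ((K ×ˢ (univ : Set B)) ×ˢ closedBall (0 : E2) r) :=
      (hK.prod isCompact_univ).prod (isCompact_closedBall _ _)
    refine h1.inter_right ?_
    exact (isClosed_le continuous_const ((nu_zero_cont P).comp continuous_fst)).inter
      (isClosed_le ((gr_zero_cont P).comp continuous_fst).norm continuous_const)
  have hCS : C ⊆ S := by
    rintro ⟨⟨x, ξ⟩, q⟩ ⟨⟨-, hq⟩, h1, h2⟩
    exact hS x ξ ⟨h1, h2⟩ q hq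
  obtain ⟨M, hM⟩ := hCc.exists_bound_of_continuousOn (hf.mono hCS)
  refine ⟨M, fun x ξ hn q hq => ?_⟩
  obtain ⟨g, hg⟩ := hK' x
  rw [← hinv g x ξ q (hS x ξ hn q hq)]
  have hn' := hn.smul g
  exact hM ((g • x, g • ξ), q) ⟨⟨⟨hg, mem_univ _⟩, hq⟩, hn'.1, hn'.2⟩

/-- uniform bounds of the derivatives on the close pairs -/
theorem nc_jc {G : Type} [NormedAddCommGroup G] [NormedSpace ℝ G] {F : X × B → E2 → G}
    {S : Set ((X × B) × E2)} (hF : JC F S) {r ε : ℝ}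
    (hS : ∀ x ξ, Nc P ε x ξ → ∀ q ∈ closedBall (0 : E2) r, ((x, ξ), q) ∈ S)
    (hinv : ∀ (g : Γ) x ξ q, ((x, ξ), q) ∈ S → F (g • x, g • ξ) q = F (x, ξ) q) (k : ℕ) :
    ∃ M, ∀ x ξ, Nc P ε x ξ → ∀ q ∈ closedBall (0 : E2) r,
      ‖iteratedFDeriv ℝ k (F (x, ξ)) q‖ ≤ M := by
  refine nc_bound (f := fun p : (X × B) × E2 => iteratedFDeriv ℝ k (F p.1) p.2) (hF.cont k) hS ?_
  intro g x ξ q hq
  have h2 : F (g • x, g • ξ) =ᶠ[𝓝 q] F (x, ξ) := by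
    filter_upwards [(isOpen_slice hF.isOpen (x, ξ)).mem_nhds hq] with w hw using hinv g x ξ w hw
  exact (h2.iteratedFDeriv ℝ k).self_of_nhds

end Vale.Agent.P207.N4.Y.H340
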