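import Vale.Agent.P207.N4.Dim
import Vale.Agent.P207.N7.H340.Nr

/-!
# P207, line N7, row S-INV: the tensor of a foreign leaf over the disc of `x`

`P.Aq x ξ` and the tensor of the leaf of `ξ`, read on the disc of the frame `x` in the affine
coordinate `q`:
`Na (hol ξ x) (Aq x ξ q) = c₀ • (DAq q ∘ (∇² (b_ξ + b_η) q)⁻¹ ∘ (DAq q)ᵀ) + Rl x ξ q`,
`η = Th x ξ q`, with `Rl` smooth.
-/

open Set Filter Topology Metric MeasureTheory
open scoped ContDiff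

noncomputable section

namespace Vale.Agent.P207.N4.Y.H340

open Vale.Agent.P207.N3 Vale.Agent.P207.N4.H709

variable [Dim]

/-! ### linear algebra and Hessians -/

theorem adjoint_jc {Z : Type} [TopologicalSpace Z] {f : Z → E2 → E2 →L[ℝ] E2}
    {S : Set (Z × E2)} (h : JC f S) : JC (fun z u => ContinuousLinearMap.adjoint (f z u)) S := by
  let A : (E2 →L[ℝ] E2) →L[ℝ] (E2 →L[ℝ] E2) :=
    LinearMap.toContinuousLinearMap
      { toFun := fun A => ContinuousLinearMap.adjoint A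
        map_add' := fun A C => map_add _ A C
        map_smul' := fun c A => by
          rw [map_smulₛₗ]
          simp }
  exact h.clm A

theorem two_le_inf : (2 : WithTop ℕ∞) ≤ ∞ := ENat.LEInfty.out

/-- a positive map is invertible -/
theorem isUnit_of_pos {A : E2 →L[ℝ] E2} (h : ∀ v ≠ 0, 0 < inner ℝ (A v) v) : IsUnit A := by
  have hinj : Function.Injective A := by
    intro v w hvw
    by_contra hne
    have h1 := h (v - w) (sub_ne_zero.2 hne)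
    rw [map_sub, hvw, sub_self, inner_zero_left] at h1
    exact lt_irrefl _ h1
  let e : E2 ≃L[ℝ] E2 := (LinearEquiv.ofInjectiveEndo (A : E2 →ₗ[ℝ] E2) hinj).toContinuousLinearEquiv
  have he : (e : E2 →L[ℝ] E2) = A := by
    ext v
    rfl
  rw [← he]
  exact ⟨⟨(e : E2 →L[ℝ] E2), (e.symm : E2 →L[ℝ] E2), by ext v; simp, by ext v; simp⟩, rfl⟩

/-- the Hessian of a composition, at a critical point -/
theorem hess_comp {f : E2 → ℝ} {φ : E2 → E2} {q : E2} (hf : ContDiffAt ℝ 2 f (φ q))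
    (hφ : ContDiffAt ℝ 2 φ q) (h0 : gradient f (φ q) = 0) :
    hess (fun t => f (φ t)) q = ContinuousLinearMap.adjoint (fderiv ℝ φ q) ∘L
      hess f (φ q) ∘L fderiv ℝ φ q := by
  have hf1 : ∀ᶠ t in 𝓝 q, DifferentiableAt ℝ f (φ t) := by
    have h1 : ∀ᶠ y in 𝓝 (φ q), ContDiffAt ℝ 2 f y := hf.eventually (by simp)
    exact (hφ.continuousAt.eventually h1).mono fun t ht => ht.differentiableAt (by norm_num)
  have hφ1 : ∀ᶠ t in 𝓝 q, DifferentiableAt ℝ φ t :=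
    (hφ.eventually (by simp)).mono fun t ht => ht.differentiableAt (by norm_num)
  have hev : fderiv ℝ (fun t => f (φ t)) =ᶠ[𝓝 q] fun t => (fderiv ℝ f (φ t)) ∘L fderiv ℝ φ t := by
    filter_upwards [hf1, hφ1] with t ht1 ht2
    exact (ht1.hasFDerivAt.comp t ht2.hasFDerivAt).fderiv
  have hfd : DifferentiableAt ℝ (fderiv ℝ f) (φ q) :=
    (hf.fderiv_right (m := 1) (by norm_num)).differentiableAt (by norm_num)
  have hφd : DifferentiableAt ℝ (fderiv ℝ φ) q :=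
    (hφ.fderiv_right (m := 1) (by norm_num)).differentiableAt (by norm_num)
  have hφq : DifferentiableAt ℝ φ q := hφ.differentiableAt (by norm_num)
  have hz : fderiv ℝ f (φ q) = 0 := by
    have h1 : rz (fderiv ℝ f (φ q)) = 0 := h0
    have h2 := norm_rz (fderiv ℝ f (φ q))
    rw [h1, norm_zero] at h2
    exact norm_eq_zero.1 h2.symm
  have hD : HasFDerivAt (fun t => (fderiv ℝ f (φ t)) ∘L fderiv ℝ φ t) _ q :=
    (hfd.hasFDerivAt.comp q hφq.hasFDerivAt).clm_comp hφd.hasFDerivAt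
  have hvw : ∀ v w, inner ℝ (hess (fun t => f (φ t)) q v) w =
      fderiv ℝ (fderiv ℝ (fun t => f (φ t))) q v w := by
    intro v w
    have hdd : DifferentiableAt ℝ (fderiv ℝ (fun t => f (φ t))) q :=
      hD.differentiableAt.congr_of_eventuallyEq hev
    have h2 : HasFDerivAt (gradient (fun t => f (φ t)))
        (rz ∘L fderiv ℝ (fderiv ℝ (fun t => f (φ t))) q) q := by
      rw [gradient_eq_rz]
      exact rz.hasFDerivAt.comp q hdd.hasFDerivAt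
    unfold hess
    rw [h2.fderiv]
    exact inner_rz _ _
  have hvw' : ∀ v w, inner ℝ (hess f (φ q) v) w = fderiv ℝ (fderiv ℝ f) (φ q) v w := by
    intro v w
    have h2 : HasFDerivAt (gradient f) (rz ∘L fderiv ℝ (fderiv ℝ f) (φ q)) (φ q) := by
      rw [gradient_eq_rz]
      exact rz.hasFDerivAt.comp (φ q) hfd.hasFDerivAt
    unfold hess
    rw [h2.fderiv]
    exact inner_rz _ _
  have hz' : (fderiv ℝ f ∘ φ) q = 0 := hz
  ext1 v
  refine ext_inner_right ℝ fun w => ?_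
  rw [hvw, hev.fderiv_eq, hD.fderiv]
  simp only [ContinuousLinearMap.comp_apply]
  rw [ContinuousLinearMap.adjoint_inner_left, hvw', hz']
  simp

/-- the inverse of `Aᵀ H A` -/
theorem inverse_conj (e : E2 ≃L[ℝ] E2) {H : E2 →L[ℝ] E2} (hH : IsUnit H) :
    Ring.inverse (ContinuousLinearMap.adjoint (e : E2 →L[ℝ] E2) ∘L H ∘L (e : E2 →L[ℝ] E2)) =
      (e.symm : E2 →L[ℝ] E2) ∘L Ring.inverse H ∘L
        ContinuousLinearMap.adjoint (e.symm : E2 →L[ℝ] E2) := by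
  obtain ⟨u, rfl⟩ := hH
  rw [Ring.inverse_unit]
  have e1 : (e : E2 →L[ℝ] E2) ∘L (e.symm : E2 →L[ℝ] E2) = ContinuousLinearMap.id ℝ E2 := by
    ext v; simp
  have e2 : (e.symm : E2 →L[ℝ] E2) ∘L (e : E2 →L[ℝ] E2) = ContinuousLinearMap.id ℝ E2 := by
    ext v; simp
  have e3 : ContinuousLinearMap.adjoint (e : E2 →L[ℝ] E2) ∘L
      ContinuousLinearMap.adjoint (e.symm : E2 →L[ℝ] E2) = ContinuousLinearMap.id ℝ E2 := by
    rw [← ContinuousLinearMap.adjoint_comp, e2, ContinuousLinearMap.adjoint_id]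
  have e4 : ContinuousLinearMap.adjoint (e.symm : E2 →L[ℝ] E2) ∘L
      ContinuousLinearMap.adjoint (e : E2 →L[ℝ] E2) = ContinuousLinearMap.id ℝ E2 := by
    rw [← ContinuousLinearMap.adjoint_comp, e1, ContinuousLinearMap.adjoint_id]
  have u1 : (u : E2 →L[ℝ] E2) ∘L ((u⁻¹ : (E2 →L[ℝ] E2)ˣ) : E2 →L[ℝ] E2) =
      ContinuousLinearMap.id ℝ E2 := u.mul_inv
  have u2 : ((u⁻¹ : (E2 →L[ℝ] E2)ˣ) : E2 →L[ℝ] E2) ∘L (u : E2 →L[ℝ] E2) =
      ContinuousLinearMap.id ℝ E2 := u.inv_mul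
  let w : (E2 →L[ℝ] E2)ˣ :=
    ⟨ContinuousLinearMap.adjoint (e : E2 →L[ℝ] E2) ∘L (u : E2 →L[ℝ] E2) ∘L (e : E2 →L[ℝ] E2),
      (e.symm : E2 →L[ℝ] E2) ∘L ((u⁻¹ : (E2 →L[ℝ] E2)ˣ) : E2 →L[ℝ] E2) ∘L
        ContinuousLinearMap.adjoint (e.symm : E2 →L[ℝ] E2), by
      ext1 v
      have h1 := fun v => DFunLike.congr_fun e1 v
      have h3 := fun v => DFunLike.congr_fun e3 v
      have h5 := fun v => DFunLike.congr_fun u1 v
      simp only [ContinuousLinearMap.comp_apply, ContinuousLinearMap.id_apply] at h1 h3 h5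
      simp only [mul_apply_eq_comp, ContinuousLinearMap.comp_apply, h1, h5, h3]
      rfl, by
      ext1 v
      have h2 := fun v => DFunLike.congr_fun e2 v
      have h4 := fun v => DFunLike.congr_fun e4 v
      have h6 := fun v => DFunLike.congr_fun u2 v
      simp only [ContinuousLinearMap.comp_apply, ContinuousLinearMap.id_apply] at h2 h4 h6
      simp only [mul_apply_eq_comp, ContinuousLinearMap.comp_apply, h4, h6, h2]
      rfl⟩
  exact Ring.inverse_unit w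

variable {Γ X B : Type} [Group Γ] [MetricSpace X] [ProperSpace X] [MulAction Γ X]
  [IsIsometricSMul Γ X] [TopologicalSpace B] [CompactSpace B] [T2Space B] [MulAction Γ B]
  [ContinuousConstSMul Γ B] {L : Leaf Γ X B} [MeasurableSpace B] [BorelSpace B] {V : Type}
  [NormedAddCommGroup V] [NormedSpace ℝ V] [FiniteDimensional ℝ V] (P : Pic L V)

/-! ### the domain on the disc -/

theorem ep_cont (L : Leaf Γ X B) : Continuous L.ep := by
  have h : L.ep = fun x => L.em (L.flip x) := funext L.ep_flip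
  rw [h]
  exact L.em_cont.comp L.flip_cont

theorem isOpen_ne : IsOpen {p : (X × B) × E2 | p.1.2 ≠ L.ep p.1.1} := by
  have h1 : Continuous fun p : (X × B) × E2 => L.ep p.1.1 :=
    (ep_cont L).comp (continuous_fst.comp continuous_fst)
  have h2 : Continuous fun p : (X × B) × E2 => p.1.2 := continuous_snd.comp continuous_fst
  exact isOpen_ne_fun h2 h1

theorem hol_contOn : ContinuousOn (fun p : X × B => ((p.1, L.hol p.2 p.1) : X × X))
    {p | p.2 ≠ L.ep p.1} := by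
  refine continuousOn_fst.prodMk ?_
  exact L.hol_cont.comp (f := fun p : X × B => ((p.2, p.1) : B × X)) (by fun_prop)
    fun p hp => hp

/-- the domain, in the coordinate of the disc -/
def SU : Set ((X × B) × E2) :=
  {p | p.1.2 ≠ L.ep p.1.1 ∧ p.2 ∈ ball (0 : E2) 3 ∧
    P.Bu.en p.1.1 p.1.2 p.2 ∈ L.e (L.hol p.1.2 p.1.1) '' ball (0 : E2) 3 ∧
    P.Bu.nu p.1.1 p.1.2 p.2 ≠ 0}

theorem isOpen_SU : IsOpen (SU P) := by
  set O : Set ((X × B) × E2) := {p | p.1.2 ≠ L.ep p.1.1 ∧ p.2 ∈ ball (0 : E2) 3} with hO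
  have hOo : IsOpen O := isOpen_ne.inter (isOpen_ball.preimage continuous_snd)
  have hen : ContinuousOn (fun p : (X × B) × E2 => P.Bu.en p.1.1 p.1.2 p.2) O :=
    P.Bu.en_cont.mono fun p hp => ⟨mem_univ _, hp.2⟩
  have hnu : ContinuousOn (fun p : (X × B) × E2 => P.Bu.nu p.1.1 p.1.2 p.2) O :=
    P.Bu.nu_cont.mono fun p hp => ⟨mem_univ _, hp.2⟩
  have hhol : ContinuousOn (fun p : (X × B) × E2 => L.hol p.1.2 p.1.1) O :=
    L.hol_cont.comp (f := fun p : (X × B) × E2 => ((p.1.2, p.1.1) : B × X)) (by fun_prop)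
      fun p hp => hp.1
  have h1 : IsOpen (O ∩ (fun p : (X × B) × E2 => ((L.hol p.1.2 p.1.1,
      P.Bu.en p.1.1 p.1.2 p.2) : X × B)) ⁻¹' {p : X × B | p.2 ∈ L.e p.1 '' ball 0 3}) :=
    (hhol.prodMk hen).isOpen_inter_preimage hOo L.e_open
  have h2 : IsOpen (O ∩ (fun p : (X × B) × E2 => P.Bu.nu p.1.1 p.1.2 p.2) ⁻¹' {0}ᶜ) :=
    hnu.isOpen_inter_preimage hOo isOpen_compl_singleton
  have h3 : SU P = (O ∩ (fun p : (X × B) × E2 => ((L.hol p.1.2 p.1.1,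
      P.Bu.en p.1.1 p.1.2 p.2) : X × B)) ⁻¹' {p : X × B | p.2 ∈ L.e p.1 '' ball 0 3}) ∩
      (O ∩ (fun p : (X × B) × E2 => P.Bu.nu p.1.1 p.1.2 p.2) ⁻¹' {0}ᶜ) := by
    ext p
    constructor
    · rintro ⟨ha, hb, hc, hd⟩
      exact ⟨⟨⟨ha, hb⟩, hc⟩, ⟨ha, hb⟩, hd⟩
    · rintro ⟨⟨⟨ha, hb⟩, hc⟩, -, hd⟩
      exact ⟨ha, hb, hc, hd⟩
  rw [h3]
  exact h1.inter h2

variable {P}

theorem SU_sgD {x : X} {ξ : B} {u : E2} (h : ((x, ξ), u) ∈ SU P) :
    ((x, L.hol ξ x), u) ∈ sgD L P.Bu.en := by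
  obtain ⟨h1, h2, h3, h4⟩ := h
  refine ⟨h2, ?_⟩
  show P.Bu.en x (L.em (L.hol ξ x)) u ∈ _
  rw [L.hol_em ξ x h1]
  exact h3

variable (P)

/-- the leaf of `ξ`, from the disc of `x` to the disc of `hol ξ x` -/
def sgu (x : X) (ξ : B) (u : E2) : E2 := sgm L P.Bu.en x (L.hol ξ x) u

theorem sgu_jc : JC (fun (p : X × B) u => sgu P p.1 p.2 u) (SU P) := by
  refine JC.pullbackOn P.Bu.sg_jc (hol_contOn (L := L)) (isOpen_SU P) ?_
  rintro ⟨⟨x, ξ⟩, u⟩ hp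
  exact ⟨hp.1, SU_sgD hp⟩

theorem Rbu_jc : JC (fun (p : X × B) u => P.Bu.Rb p.1 (L.hol p.2 p.1) u) (SU P) := by
  refine JC.pullbackOn P.Bu.Rb_jc (hol_contOn (L := L)) (isOpen_SU P) ?_
  rintro ⟨⟨x, ξ⟩, u⟩ hp
  refine ⟨hp.1, SU_sgD hp, ?_⟩
  show P.Bu.nu x (L.em (L.hol ξ x)) u ≠ 0
  rw [L.hol_em ξ x hp.1]
  exact hp.2.2.2

variable {P}

theorem sgu_spec {x : X} {ξ : B} {u : E2} (h : ((x, ξ), u) ∈ SU P) :
    sgu P x ξ u ∈ ball (0 : E2) 3 ∧ L.e (L.hol ξ x) (sgu P x ξ u) = P.Bu.en x ξ u := by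
  obtain ⟨h1, h2, ⟨v, hv, hv'⟩, h4⟩ := h
  have h5 : sgu P x ξ u = v := by
    rw [sgu, sgm, L.hol_em ξ x h1]
    have : P.Bu.en x ξ u = L.e (L.hol ξ x) v := hv'.symm
    rw [this]
    exact (L.e_inj _).leftInvOn_invFunOn (ball_subset_closedBall hv)
  rw [h5]
  exact ⟨hv, hv'⟩

/-! ### the domain in the affine coordinate -/

variable (P)

/-- the domain, in the affine coordinate -/
def SA : Set ((X × B) × E2) := {p | (p.1.1, p.2) ∈ P.Af.dT ∧ (p.1, P.dsc p.1.1 p.2) ∈ SU P}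

theorem dsc_jcB : JC (fun (p : X × B) q => P.dsc p.1 q)
    {p : (X × B) × E2 | (p.1.1, p.2) ∈ P.Af.dT} :=
  P.Af.dsc_jc.pullback (continuous_fst : Continuous fun p : X × B => p.1)

theorem isOpen_SA : IsOpen (SA P) := by
  have h1 := (dsc_jcB P).continuousOn
  have h2 : ContinuousOn (fun p : (X × B) × E2 => ((p.1, P.dsc p.1.1 p.2) : (X × B) × E2))
      {p : (X × B) × E2 | (p.1.1, p.2) ∈ P.Af.dT} := continuousOn_fst.prodMk h1
  exact h2.isOpen_inter_preimage (dsc_jcB P).isOpen (isOpen_SU P)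

theorem dsc_jcA : JC (fun (p : X × B) q => P.dsc p.1 q) (SA P) :=
  (dsc_jcB P).mono (isOpen_SA P) fun _ hp => hp.1

/-- `sgu` in the affine coordinate of the disc of `x` -/
def sq (x : X) (ξ : B) (q : E2) : E2 := sgu P x ξ (P.dsc x q)

theorem sq_jc : JC (fun (p : X × B) q => sq P p.1 p.2 q) (SA P) :=
  (sgu_jc P).comp' (dsc_jcA P) fun _ hp => hp.2

theorem cu_hol_jc : JC (fun (p : X × B) u => P.Af.cu (L.hol p.2 p.1) u)
    {p : (X × B) × E2 | p.1.2 ≠ L.ep p.1.1 ∧ p.2 ∈ ball (0 : E2) 3} := by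
  refine JC.pullbackOn (U := {p : X × B | p.2 ≠ L.ep p.1}) P.Af.cu_jc
    (c := fun p : X × B => L.hol p.2 p.1)
    (L.hol_cont.comp (f := fun p : X × B => ((p.2, p.1) : B × X)) (by fun_prop) fun p hp => hp)
    (isOpen_ne.inter (isOpen_ball.preimage continuous_snd)) ?_
  rintro ⟨⟨x, ξ⟩, u⟩ hp
  exact ⟨hp.1, mem_univ _, hp.2⟩

variable {P}

theorem SA_ne {x : X} {ξ : B} {q : E2} (h : ((x, ξ), q) ∈ SA P) : ξ ≠ L.ep x := h.2.1

theorem sq_spec {x : X} {ξ : B} {q : E2} (h : ((x, ξ), q) ∈ SA P) :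
    sq P x ξ q ∈ ball (0 : E2) 3 ∧ L.e (L.hol ξ x) (sq P x ξ q) = P.Th x ξ q := sgu_spec h.2

theorem Aq_eq {x : X} {ξ : B} {q : E2} (h : ((x, ξ), q) ∈ SA P) :
    P.Aq x ξ q = P.Af.cu (L.hol ξ x) (sq P x ξ q) := by
  rw [Pic.Aq, ← (sq_spec h).2]
  rfl

theorem dsc_Aq {x : X} {ξ : B} {q : E2} (h : ((x, ξ), q) ∈ SA P) :
    P.Af.dsc (L.hol ξ x) (P.Aq x ξ q) = sq P x ξ q := by
  rw [Aq_eq h]
  exact P.Af.dsc_cu _ (ball_subset_closedBall (sq_spec h).1)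

variable (P)

theorem Aq_jc : JC (fun (p : X × B) q => P.Aq p.1 p.2 q) (SA P) := by
  have h1 := (cu_hol_jc P).comp' (sq_jc P) fun p hp => ⟨hp.2.1, (sq_spec hp).1⟩
  refine h1.congr ?_
  rintro ⟨⟨x, ξ⟩, q⟩ hp
  exact Aq_eq hp

variable {P}

/-- the derivative of `Aq` -/
theorem Aq_hasFDerivAt {x : X} {ξ : B} {q : E2} (h : ((x, ξ), q) ∈ SA P) :
    HasFDerivAt (P.Aq x ξ) (fderiv ℝ (P.Af.cu (L.hol ξ x)) (sq P x ξ q) ∘L
      fderiv ℝ (sgu P x ξ) (P.dsc x q) ∘L fderiv ℝ (P.dsc x) q) q := by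
  have h1 : HasFDerivAt (P.Af.cu (L.hol ξ x)) (fderiv ℝ (P.Af.cu (L.hol ξ x)) (sq P x ξ q))
      (sq P x ξ q) := (P.Af.cu_diff _ (sq_spec h).1).hasFDerivAt
  have h2 : HasFDerivAt (sgu P x ξ) (fderiv ℝ (sgu P x ξ) (P.dsc x q)) (P.dsc x q) :=
    ((sgu_jc P).differentiableAt (p := ((x, ξ), P.dsc x q)) h.2).hasFDerivAt
  have h3 : HasFDerivAt (P.dsc x) (fderiv ℝ (P.dsc x) q) q := (P.Af.dsc_diff h.1).hasFDerivAt
  have h4 := h1.comp q (h2.comp q h3)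
  refine h4.congr_of_eventuallyEq ?_
  filter_upwards [(isOpen_slice (isOpen_SA P) (x, ξ)).mem_nhds h] with w hw using Aq_eq hw

/-- the Hessian of the sum, on the disc -/
def Hu (P : Pic L V) (x : X) (ξ : B) (u : E2) : E2 →L[ℝ] E2 :=
  hess (P.Bu.be x ξ) u + hess (P.Bu.be x (P.Bu.en x ξ u)) u

/-- the Hessian of the sum, in the affine coordinate -/
def Hn (P : Pic L V) (x : X) (ξ : B) (q : E2) : E2 →L[ℝ] E2 := hess (P.Sq x ξ (P.Th x ξ q)) q

theorem Hu_unit {x : X} {ξ : B} {u : E2} (h : ((x, ξ), u) ∈ SU P) : IsUnit (Hu P x ξ u) :=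
  isUnit_of_pos fun v hv => P.Bu.pos x ξ u h.2.1 h.2.2.2 v hv

theorem Hn_eq {x : X} {ξ : B} {q : E2} (h : ((x, ξ), q) ∈ SA P) :
    Hn P x ξ q = ContinuousLinearMap.adjoint (fderiv ℝ (P.dsc x) q) ∘L
      Hu P x ξ (P.dsc x q) ∘L fderiv ℝ (P.dsc x) q := by
  have hu : P.dsc x q ∈ ball (0 : E2) 3 := h.2.2.1
  have hc : ∀ ζ, ContDiffAt ℝ 2 (P.Bu.be x ζ) (P.dsc x q) := fun ζ =>
    (P.Bu.be_jc.contDiffAt (p := ((x, ζ), P.dsc x q)) ⟨mem_univ _, hu⟩).of_le two_le_inf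
  set η := P.Th x ξ q with hη
  have h1 : P.Sq x ξ η = fun t => (fun u => P.Bu.be x ξ u + P.Bu.be x η u) (P.dsc x t) := rfl
  have h2 : gradient (fun u => P.Bu.be x ξ u + P.Bu.be x η u) (P.dsc x q) = 0 := by
    rw [gradient_add' (be_diff P.Bu x ξ hu) (be_diff P.Bu x η hu)]
    have h3 := gradient_en P.Bu x ξ hu
    have h4 : P.Bu.en x ξ (P.dsc x q) = η := rfl
    rw [h4] at h3
    rw [h3, add_neg_cancel]
  have h5 : hess (fun u => P.Bu.be x ξ u + P.Bu.be x η u) (P.dsc x q) = Hu P x ξ (P.dsc x q) := by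
    have h6 : gradient (fun u => P.Bu.be x ξ u + P.Bu.be x η u) =ᶠ[𝓝 (P.dsc x q)]
        fun t => gradient (P.Bu.be x ξ) t + gradient (P.Bu.be x η) t := by
      filter_upwards [isOpen_ball.mem_nhds hu] with t ht using
        gradient_add' (be_diff P.Bu x ξ ht) (be_diff P.Bu x η ht)
    have d : ∀ ζ, DifferentiableAt ℝ (gradient (P.Bu.be x ζ)) (P.dsc x q) := fun ζ =>
      (gradient_jc P.Bu.be_jc).differentiableAt (p := ((x, ζ), P.dsc x q)) ⟨mem_univ _, hu⟩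
    unfold hess Hu
    rw [h6.fderiv_eq, fderiv_fun_add (d _) (d _)]
    rfl
  rw [Hn, h1, hess_comp ((hc ξ).add (hc η))
    ((P.Af.dsc_smooth x h.1).of_le two_le_inf) h2, h5]

theorem Hn_inverse {x : X} {ξ : B} {q : E2} (h : ((x, ξ), q) ∈ SA P) :
    Ring.inverse (Hn P x ξ q) = fderiv ℝ (P.Af.cu x) (P.dsc x q) ∘L
      Ring.inverse (Hu P x ξ (P.dsc x q)) ∘L
        ContinuousLinearMap.adjoint (fderiv ℝ (P.Af.cu x) (P.dsc x q)) := by
  rw [Hn_eq h]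
  exact inverse_conj (P.Af.ddsc h.1) (Hu_unit h.2)

/-- **the tensor of the leaf of `ξ` over the disc of `x`** -/
theorem lnk {x : X} {ξ : B} {q : E2} (h : ((x, ξ), q) ∈ SA P) :
    P.Na (L.hol ξ x) (P.Aq x ξ q) = P.Bu.c₀ • (fderiv ℝ (P.Aq x ξ) q ∘L
      Ring.inverse (Hn P x ξ q) ∘L ContinuousLinearMap.adjoint (fderiv ℝ (P.Aq x ξ) q)) +
      fderiv ℝ (P.Af.cu (L.hol ξ x)) (sq P x ξ q) ∘L P.Bu.Rb x (L.hol ξ x) (P.dsc x q) ∘L
        ContinuousLinearMap.adjoint (fderiv ℝ (P.Af.cu (L.hol ξ x)) (sq P x ξ q)) := by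
  have hnu : P.Bu.nu x (L.em (L.hol ξ x)) (P.dsc x q) ≠ 0 := by
    rw [L.hol_em ξ x h.2.1]
    exact h.2.2.2.2
  have h1 := P.Bu.link x (L.hol ξ x) (P.dsc x q) (SU_sgD h.2) hnu
  rw [L.hol_em ξ x h.2.1] at h1
  have h2 : P.Na (L.hol ξ x) (P.Aq x ξ q) = fderiv ℝ (P.Af.cu (L.hol ξ x)) (sq P x ξ q) ∘L
      P.S.T.N (L.hol ξ x) (sq P x ξ q) ∘L
      ContinuousLinearMap.adjoint (fderiv ℝ (P.Af.cu (L.hol ξ x)) (sq P x ξ q)) := by
    show P.Af.Na P.S.T (L.hol ξ x) (P.Aq x ξ q) = _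
    rw [Aff.Na, dsc_Aq h]
    rfl
  have h3 : P.S.T.N (L.hol ξ x) (sq P x ξ q) = P.Bu.c₀ • (fderiv ℝ (sgu P x ξ) (P.dsc x q) ∘L
      Ring.inverse (Hu P x ξ (P.dsc x q)) ∘L
      ContinuousLinearMap.adjoint (fderiv ℝ (sgu P x ξ) (P.dsc x q))) +
      P.Bu.Rb x (L.hol ξ x) (P.dsc x q) := h1
  have h4 := (Aq_hasFDerivAt h).fderiv
  have h5 : fderiv ℝ (P.dsc x) q ∘L fderiv ℝ (P.Af.cu x) (P.dsc x q) =
      ContinuousLinearMap.id ℝ E2 := P.Af.der_dsc_cu h.1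
  have h6 : ContinuousLinearMap.adjoint (fderiv ℝ (P.Af.cu x) (P.dsc x q)) ∘L
      ContinuousLinearMap.adjoint (fderiv ℝ (P.dsc x) q) = ContinuousLinearMap.id ℝ E2 := by
    rw [← ContinuousLinearMap.adjoint_comp, h5, ContinuousLinearMap.adjoint_id]
  rw [h2, h3, h4, Hn_inverse h]
  simp only [ContinuousLinearMap.adjoint_comp]
  have h5' := fun v => DFunLike.congr_fun h5 v
  have h6' := fun v => DFunLike.congr_fun h6 v
  simp only [ContinuousLinearMap.comp_apply, ContinuousLinearMap.id_apply] at h5' h6'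
  ext1 v
  simp only [ContinuousLinearMap.comp_apply, add_apply, smul_apply, map_add, map_smul, h5', h6']

end Vale.Agent.P207.N4.Y.H340
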