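import Vale.Agent.P207.N4.Dim
import Vale.Agent.P207.N7.H340.NearP

/-!
# P207, line N7, row S-INV: `NearK` for the discs of `x` and of `hol ξ x`
-/

open Set Filter Topology Metric MeasureTheory
open scoped ContDiff

set_option maxSynthPendingDepth 3

noncomputable section

namespace Vale.Agent.P207.N4.Y.H340

open Vale.Agent.P207.N3 Vale.Agent.P207.N4.H709 Vale.Agent.P207.H751 Vale.Agent.P207.H340
open Vale.Agent.P207.H686 Vale.Agent.P207.N4.H751 Vale.Agent.P207.N4.Y.H751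

variable [Dim]

variable {Γ X B : Type} [Group Γ] [MetricSpace X] [ProperSpace X] [MulAction Γ X]
  [IsIsometricSMul Γ X] [TopologicalSpace B] [CompactSpace B] [T2Space B] [MulAction Γ B]
  [ContinuousConstSMul Γ B] {L : Leaf Γ X B} [MeasurableSpace B] [BorelSpace B] {V : Type}
  [NormedAddCommGroup V] [NormedSpace ℝ V] [FiniteDimensional ℝ V] {P : Pic L V}

theorem pzd_N (hR : P.RateP) (x : X) {q : E2} (hq : q ∈ closedBall (0 : E2) 2) (s : Fm E2) :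
    (pzd P hR).N x q s = prL bs (P.Na x q) s := by
  show prL (EuclideanSpace.basisFun (Fin _) ℝ) ((toIn P.Af).Nh P.S.T x q) s = _
  rw [toIn_Nh _ _ _ hq]
  rfl

/-- the norm of the pairing -/
def cpr [Dim] : ℝ := ‖(prL bs : (E2 →L[ℝ] E2) →L[ℝ] (Fm E2 →L[ℝ] ℝ))‖

theorem cpr_nonneg : 0 ≤ cpr := norm_nonneg _

theorem prL_le (Z : E2 →L[ℝ] E2) (s : Fm E2) : ‖prL bs Z s‖ ≤ cpr * ‖Z‖ * ‖s‖ :=
  ((prL bs Z).le_opNorm s).trans (mul_le_mul_of_nonneg_right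
    ((prL bs : (E2 →L[ℝ] E2) →L[ℝ] (Fm E2 →L[ℝ] ℝ)).le_opNorm Z) (norm_nonneg _))

/-- the estimate for the forms -/
theorem near_pair (hR : P.RateP) {x : X} {ξ : B} {w q : E2} (hw : w ∈ closedBall (0 : E2) 2)
    (hq : P.Aq x ξ q ∈ closedBall (0 : E2) 2) (hinv : (fderiv ℝ (P.Aq x ξ) w).IsInvertible)
    (hh : P.hh x ξ w = P.Aq x ξ q) {k : ℝ}
    (hZ : ‖fderiv ℝ (P.Aq x ξ) w ∘L (P.Na x w - Bf P x ξ w) ∘L
        ContinuousLinearMap.adjoint (fderiv ℝ (P.Aq x ξ) w) -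
      P.Na (L.hol ξ x) (P.Aq x ξ q)‖ ≤ k) (s : Fm E2) :
    |(pzd P hR).N x w (actF.pull (fderiv ℝ (P.Aq x ξ) w) s) -
      (pzd P hR).N (L.hol ξ x) (P.hh x ξ w) s -
      prL bs (Bf P x ξ w) (actF.pull (fderiv ℝ (P.Aq x ξ) w) s)| ≤ cpr * k * ‖s‖ := by
  rw [hh, pzd_N hR x hw, pzd_N hR _ hq, actF_pull, ← prL_conj hinv, ← prL_conj hinv]
  have e1 : fderiv ℝ (P.Aq x ξ) w ∘L (P.Na x w - Bf P x ξ w) ∘L
      ContinuousLinearMap.adjoint (fderiv ℝ (P.Aq x ξ) w) =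
      fderiv ℝ (P.Aq x ξ) w ∘L P.Na x w ∘L
        ContinuousLinearMap.adjoint (fderiv ℝ (P.Aq x ξ) w) -
      fderiv ℝ (P.Aq x ξ) w ∘L Bf P x ξ w ∘L
        ContinuousLinearMap.adjoint (fderiv ℝ (P.Aq x ξ) w) := by
    ext1 v
    simp only [ContinuousLinearMap.comp_apply, sub_apply, map_sub]
  rw [e1] at hZ
  set T1 := fderiv ℝ (P.Aq x ξ) w ∘L P.Na x w ∘L
    ContinuousLinearMap.adjoint (fderiv ℝ (P.Aq x ξ) w)
  set T2 := fderiv ℝ (P.Aq x ξ) w ∘L Bf P x ξ w ∘L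
    ContinuousLinearMap.adjoint (fderiv ℝ (P.Aq x ξ) w)
  set T3 := P.Na (L.hol ξ x) (P.Aq x ξ q)
  have e : prL bs T1 s - prL bs T3 s - prL bs T2 s = prL bs (T1 - T2 - T3) s := by
    rw [map_sub, map_sub, sub_apply, sub_apply]
    ring
  rw [e, ← Real.norm_eq_abs]
  refine (prL_le _ s).trans ?_
  exact mul_le_mul_of_nonneg_right (mul_le_mul_of_nonneg_left hZ cpr_nonneg) (norm_nonneg _)

theorem self_abs_mul {c C t : ℝ} (hc : 0 ≤ c) (hct : c ≤ t) : C * c ≤ |C| * t :=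
  mul_le_mul (le_abs_self C) hct hc (abs_nonneg C)

variable (P) in
/-- **the crossings**, for close pairs -/
theorem near_cross {ε₀ : ℝ} (hε₀ : 0 < ε₀) (h2d : P.T2d ε₀) (h2h : P.T2h ε₀) :
    ∃ ε > 0, ε ≤ ε₀ ∧ ∃ K > 0, ∀ x ξ t, P.Nr ε x ξ → ‖P.gr x ξ 0‖ ≤ t → t ≤ ε →
      (∀ q ∈ ball (0 : E2) 1, ‖hess (P.dl x ξ) q‖ ≤ K * t) ∧
      ∀ w ∈ ball (0 : E2) (1 / 2), ‖P.Hq x ξ w - w‖ ≤ K * t ∧
        P.Th x ξ (P.Hq x ξ w) = P.Af.pt x w ∧ P.hh x ξ w = P.Aq x ξ (P.Hq x ξ w) ∧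
        P.Hq x ξ w ∈ closedBall (0 : E2) (3 / 4) := by
  obtain ⟨C2, hC2⟩ := h2d 1 (by
    have h1 := P.Ra.pinch
    have h2 := P.Ra.a_pos
    linarith) 2 le_rfl
  obtain ⟨CH, hCH⟩ := h2h
  obtain ⟨MI, hMI⟩ := P.N0_bound (r := 1) (by have := P.Af.two_lt_rad; linarith)
  set K : ℝ := |CH| + |MI| * (1 + |C2|) + |C2| + 1 with hK
  have hK0 : 0 < K := by positivity
  set ε : ℝ := min ε₀ (min 1 (1 / (4 * K))) with hε
  have hεpos : 0 < ε := lt_min hε₀ (lt_min one_pos (by positivity))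
  refine ⟨ε, hεpos, min_le_left _ _, K, hK0, fun x ξ t hn hgt htε => ?_⟩
  have hg0 : 0 ≤ ‖P.gr x ξ 0‖ := norm_nonneg _
  have ht0 : 0 ≤ t := hg0.trans hgt
  have ht1 : t ≤ 1 := htε.trans ((min_le_right _ _).trans (min_le_left _ _))
  have htK : K * t ≤ 1 / 4 := by
    have h1 : t ≤ 1 / (4 * K) := htε.trans ((min_le_right _ _).trans (min_le_right _ _))
    rw [le_div_iff₀ (by positivity)] at h1
    linarith
  have hn0 : P.Nr ε₀ x ξ := ⟨hn.1, hn.2.trans (min_le_left _ _)⟩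
  have hhess : ∀ q ∈ ball (0 : E2) 1, ‖hess (P.dl x ξ) q‖ ≤ |C2| * t := by
    intro q hq
    have hdT : (x, q) ∈ P.Af.dT := P.Af.closedBall_dT x
      (closedBall_subset_closedBall (by norm_num) (ball_subset_closedBall hq))
    have h1 := norm_hess_le ((P.dl_smooth x ξ hdT).of_le two_le_inf)
    have h2 := hC2 x ξ hn0 q hq
    rw [Real.rpow_one] at h2
    exact (h1.trans h2).trans (self_abs_mul hg0 hgt)
  have hC2K : |C2| * t ≤ K * t := by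
    refine mul_le_mul_of_nonneg_right ?_ ht0
    have : 0 ≤ |CH| + |MI| * (1 + |C2|) := by positivity
    rw [hK]
    linarith
  refine ⟨fun q hq => (hhess q hq).trans hC2K, fun w hw => ?_⟩
  have hw1 : w ∈ ball (0 : E2) 1 := ball_subset_ball (by norm_num) hw
  obtain ⟨-, h1, h2, h4⟩ := hCH x ξ hn0 w hw1
  have hgw : ‖P.gr x ξ w‖ ≤ (1 + |C2|) * t := by
    have h5 : ‖P.gr x ξ w - P.gr x ξ 0‖ ≤ |C2| * t * ‖w - 0‖ :=
      (convex_ball (0 : E2) 1).norm_image_sub_le_of_norm_fderiv_le (fun q hq =>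
        P.gr_jc.differentiableAt (p := ((x, ξ), q)) (P.Af.closedBall_dT x
          (closedBall_subset_closedBall (by norm_num) (ball_subset_closedBall hq))))
        (fun q hq => hhess q hq) (mem_ball_self one_pos) hw1
    have h6 : ‖w - 0‖ ≤ 1 := by
      rw [sub_zero]
      exact (mem_ball_zero_iff.1 hw1).le
    have h7 : |C2| * t * ‖w - 0‖ ≤ |C2| * t * 1 :=
      mul_le_mul_of_nonneg_left h6 (mul_nonneg (abs_nonneg _) ht0)
    have h8 : ‖P.gr x ξ w‖ ≤ ‖P.gr x ξ 0‖ + ‖P.gr x ξ w - P.gr x ξ 0‖ :=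
      norm_le_norm_add_norm_sub' _ _
    linarith
  have hN0 : ‖P.N0 x w‖ ≤ |MI| :=
    (hMI x w (ball_subset_closedBall hw1)).trans (le_abs_self _)
  have hdist : ‖P.Hq x ξ w - w‖ ≤ K * t := by
    have e : P.Hq x ξ w - w = (P.Hq x ξ w - w + P.N0 x w (P.gr x ξ w)) -
        P.N0 x w (P.gr x ξ w) := by abel
    have h5 : ‖P.gr x ξ 0‖ ^ 2 ≤ t := by
      have h6 : ‖P.gr x ξ 0‖ ^ 2 ≤ t ^ 2 := pow_le_pow_left₀ hg0 hgt 2
      have h7 : t ^ 2 ≤ t := by nlinarith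
      exact h6.trans h7
    have h6 : CH * ‖P.gr x ξ 0‖ ^ 2 ≤ |CH| * t := self_abs_mul (by positivity) h5
    have h7 : ‖P.N0 x w (P.gr x ξ w)‖ ≤ |MI| * ((1 + |C2|) * t) :=
      ((P.N0 x w).le_opNorm _).trans (mul_le_mul hN0 hgw (norm_nonneg _) (abs_nonneg _))
    have h8 : ‖P.Hq x ξ w - w‖ ≤ |CH| * t + |MI| * ((1 + |C2|) * t) := by
      rw [e]
      exact (norm_sub_le _ _).trans (add_le_add (h4.trans h6) h7)
    refine h8.trans ?_
    have h9 : K * t = |CH| * t + |MI| * ((1 + |C2|) * t) + (|C2| + 1) * t := by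
      rw [hK]
      ring
    have h10 : 0 ≤ (|C2| + 1) * t := by positivity
    linarith
  refine ⟨hdist, h1, h2, ?_⟩
  rw [mem_closedBall_zero_iff]
  have h5 : ‖w‖ < 1 / 2 := mem_ball_zero_iff.1 hw
  have h6 : ‖P.Hq x ξ w‖ ≤ ‖w‖ + ‖P.Hq x ξ w - w‖ := norm_le_norm_add_norm_sub' _ _
  linarith

variable (P) in
/-- **the discs of `x` and of `hol ξ x` are close** -/
theorem nearK_of (hR : P.RateP) {ε₀ : ℝ} (hε₀ : 0 < ε₀) (h2d : P.T2d ε₀) (h2h : P.T2h ε₀)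
    (h3 : P.T3 ε₀) {θ : ℝ} (hθ0 : 0 ≤ θ) (hθ : θ < 1) :
    ∃ ε > 0, ∃ M : ℕ → ℝ, ∀ x ξ t, P.Nr ε x ξ → ‖P.gr x ξ 0‖ ≤ t → 0 < t → t ≤ ε →
      NearK actF (1 / 2) M θ t ((pzd P hR).N (L.hol ξ x)) ((pzd P hR).N x)
        (fderiv ℝ (P.hh x ξ) 0) := by
  obtain ⟨ε1, hε1, hdom, hlt⟩ := exists_dom P
  obtain ⟨MA, MR, MB, MI, MH, hMA, hMR, hMB, hMI, hMH⟩ := exists_const P hdom
  obtain ⟨ε2, hε2, hε20, K, hK0, hcr⟩ := near_cross P hε₀ h2d h2h
  obtain ⟨C3, hC3⟩ := h3.2 θ hθ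
  set Kc : ℝ := P.Bu.c₀ * (2 * (MA 1 * MI * MA 2) + MA 1 ^ 2 * (MI ^ 2 * (2 * MH + 1))) + MR 1
    with hKc
  have hcp0 : 0 ≤ cpr := cpr_nonneg
  set K1 : ℝ := |MA 1| * K + cpr * |Kc * K| + |C3| with hK1
  have hK10 : 0 ≤ K1 := by positivity
  refine ⟨min ε1 ε2, lt_min hε1 hε2, fun k => |MA k| + cpr * |MB k| + K1,
    fun x ξ t hn hgt ht0 htε => ?_⟩
  have hn2 : P.Nr ε2 x ξ := ⟨hn.1, hn.2.trans (min_le_right _ _)⟩
  have hn0 : P.Nr ε₀ x ξ := ⟨hn.1, hn2.2.trans hε20⟩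
  have hnc : Nc P ε1 x ξ := ⟨hn.1.le, hn.2.trans (min_le_left _ _)⟩
  obtain ⟨hhess, hcross⟩ := hcr x ξ t hn2 hgt (htε.trans (min_le_right _ _))
  have hball : ball (0 : E2) (1 / 2) ⊆ closedBall (0 : E2) 1 :=
    (ball_subset_ball (by norm_num)).trans ball_subset_closedBall
  have h34 : closedBall (0 : E2) (3 / 4) ⊆ closedBall (0 : E2) 1 :=
    closedBall_subset_closedBall (by norm_num)
  have h34' : closedBall (0 : E2) (3 / 4) ⊆ ball (0 : E2) 1 :=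
    closedBall_subset_ball (by norm_num)
  have hMA1 : 0 ≤ MA 1 := (norm_nonneg _).trans
    (hMA 1 x ξ hnc 0 (mem_closedBall_self zero_le_one))
  have hAqd : ∀ u ∈ closedBall (0 : E2) 1, DifferentiableAt ℝ (P.Aq x ξ) u := fun u hu =>
    (Aq_jc P).differentiableAt (p := ((x, ξ), u)) (hdom x ξ hnc u hu)
  have hBfd : ∀ u ∈ ball (0 : E2) (1 / 2), ContDiffAt ℝ ∞ (Bf P x ξ) u := fun u hu =>
    (Bf_jc P).contDiffAt (p := ((x, ξ), u)) (hdom x ξ hnc u (hball hu))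
  have hM : K1 ≤ |MA 0| + cpr * |MB 0| + K1 := by
    have : 0 ≤ |MA 0| + cpr * |MB 0| := by positivity
    linarith
  refine ⟨P.Aq x ξ, P.hh x ξ, fun w => prL bs (Bf P x ξ w), ?_, ?_, ?_, ?_, ?_, ?_⟩
  · exact fun u hu => ((Aq_jc P).contDiffAt (p := ((x, ξ), u))
      (hdom x ξ hnc u (hball hu))).contDiffWithinAt
  · intro u hu
    exact ((prL bs).contDiff.contDiffAt.comp u (hBfd u hu)).contDiffWithinAt
  · intro k u hu
    have h1 := hMA k x ξ hnc u (hball hu)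
    have h2 : 0 ≤ cpr * |MB k| := by positivity
    have h3 := le_abs_self (MA k)
    show ‖iteratedFDeriv ℝ k (P.Aq x ξ) u‖ ≤ |MA k| + cpr * |MB k| + K1
    linarith
  · intro k u hu
    have h2 : ‖iteratedFDeriv ℝ k (fun w => prL bs (Bf P x ξ w)) u‖ ≤
        cpr * ‖iteratedFDeriv ℝ k (Bf P x ξ) u‖ :=
      (prL bs : (E2 →L[ℝ] E2) →L[ℝ] (Fm E2 →L[ℝ] ℝ)).norm_iteratedFDeriv_comp_left
        (hBfd u hu) (by exact_mod_cast le_top)
    have h4 : cpr * ‖iteratedFDeriv ℝ k (Bf P x ξ) u‖ ≤ cpr * |MB k| :=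
      mul_le_mul_of_nonneg_left ((hMB k x ξ hnc u (hball hu)).trans (le_abs_self _)) hcp0
    have h6 : 0 ≤ |MA k| := abs_nonneg _
    show ‖iteratedFDeriv ℝ k (fun w => prL bs (Bf P x ξ w)) u‖ ≤ |MA k| + cpr * |MB k| + K1
    linarith
  · intro w hw
    obtain ⟨hc1, hc2, hc3, hq34⟩ := hcross w hw
    have hw34 : w ∈ closedBall (0 : E2) (3 / 4) :=
      (ball_subset_closedBall.trans (closedBall_subset_closedBall (by norm_num))) hw
    have hAw := hlt x ξ hnc w hw34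
    have hAq := hlt x ξ hnc _ hq34
    refine ⟨mem_ball_zero_iff.2 hAw, by rw [hc3]; exact mem_ball_zero_iff.2 hAq, ?_, ?_⟩
    · rw [hc3]
      have h1 := lip_ball (F := P.Aq x ξ) (M := MA 1) hAqd (fun u hu => by
        rw [← norm_iteratedFDeriv_one]
        exact hMA 1 x ξ hnc u hu) (hball hw) (h34 hq34)
      have h2 : ‖P.Aq x ξ (P.Hq x ξ w) - P.Aq x ξ w‖ ≤ MA 1 * (K * t) :=
        h1.trans (mul_le_mul_of_nonneg_left hc1 hMA1)
      have h5 : MA 1 * K ≤ K1 := by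
        have h6 : MA 1 * K ≤ |MA 1| * K := mul_le_mul_of_nonneg_right (le_abs_self _) hK0.le
        have h7 : 0 ≤ cpr * |Kc * K| + |C3| := by positivity
        rw [hK1]
        linarith
      have h4 : MA 1 * (K * t) ≤ (|MA 0| + cpr * |MB 0| + K1) * t := by
        rw [← mul_assoc]
        exact mul_le_mul_of_nonneg_right (h5.trans hM) ht0.le
      exact h2.trans h4
    · intro s
      have hcore := near_core hnc hdom hMA hMR hMI hMH (hball hw) (h34 hq34) hc2 hc1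
        (hhess _ (h34' hq34))
      have hp := near_pair hR (closedBall_subset_closedBall (by norm_num) (hball hw))
        (by rw [mem_closedBall_zero_iff]; linarith)
        (fderiv_Aq_inv (hdom x ξ hnc w (hball hw))) hc3 hcore s
      refine hp.trans (mul_le_mul_of_nonneg_right ?_ (norm_nonneg _))
      have h5 : cpr * (Kc * K) ≤ K1 := by
        have h6 : cpr * (Kc * K) ≤ cpr * |Kc * K| :=
          mul_le_mul_of_nonneg_left (le_abs_self _) hcp0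
        have h7 : 0 ≤ |MA 1| * K + |C3| := by positivity
        rw [hK1]
        linarith
      calc cpr * (Kc * (K * t)) = cpr * (Kc * K) * t := by ring
        _ ≤ (|MA 0| + cpr * |MB 0| + K1) * t := mul_le_mul_of_nonneg_right (h5.trans hM) ht0.le
  · have h1 := hC3 x ξ hn0 0 (mem_ball_self one_pos)
    have hg0 : 0 ≤ ‖P.gr x ξ 0‖ := norm_nonneg _
    have h2 : ‖P.gr x ξ 0‖ ^ θ ≤ t ^ θ := Real.rpow_le_rpow hg0 hgt hθ0
    have h4 : 0 ≤ t ^ θ := Real.rpow_nonneg ht0.le _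
    have h5 : C3 * ‖P.gr x ξ 0‖ ^ θ ≤ |C3| * t ^ θ :=
      self_abs_mul (Real.rpow_nonneg hg0 _) h2
    refine (h1.trans h5).trans (mul_le_mul_of_nonneg_right ?_ h4)
    have h6 : 0 ≤ |MA 1| * K + cpr * |Kc * K| := by positivity
    refine le_trans ?_ hM
    rw [hK1]
    linarith

end Vale.Agent.P207.N4.Y.H340
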